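import Vale.Agent.P210.Main

/-!
Uniform Urysohn width bound for complete conformally flat metrics of scalar curvature at least one.
-/

open scoped ContDiff

namespace Vale.Agent.Results.P210.ConfFlat

open Vale.Agent.P210

theorem result (n : ℕ) (hn : 3 ≤ n) : ∃ C : ℝ, ∀ (Ω : Set (E n)) (φ : E n → ℝ), IsOpen Ω →
    IsConnected Ω → ContDiffOn ℝ ∞ φ Ω → IsCompleteMetric Ω (conf φ) →
    (∀ x ∈ Ω, 1 ≤ scal (conf φ) x) →
    ∃ (V : Type) (K : AbstractSimplicialComplex V) (f : Ω → Geom K),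
      (∀ s ∈ K.faces, s.card ≤ n / 2 + 1) ∧ Continuous f ∧
      ∀ x y : Ω, f x = f y → rdist Ω (conf φ) x y ≤ ENNReal.ofReal C :=
  main n hn

end Vale.Agent.Results.P210.ConfFlat
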